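import Mathlib

/-!
The mean-one exponential law `nu`, its finite powers `PP N`, and the passage from the
orthant integral against `exp (-∑ x i)` to an integral against `PP N`.
-/

set_option autoImplicit false

open MeasureTheory Set Real

namespace Crest.Agent.R280

/-- The mean-one exponential law. -/
noncomputable def nu : Measure ℝ :=
  (volume.restrict (Ioi (0 : ℝ))).withDensity (fun x => ENNReal.ofReal (Real.exp (-x)))

theorem integral_nu (f : ℝ → ℝ) :
    ∫ x, f x ∂nu = ∫ x in Ioi (0 : ℝ), f x * Real.exp (-x) := by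
  unfold nu
  rw [integral_withDensity_eq_integral_toReal_smul (by fun_prop) (by simp)]
  refine integral_congr_ae (Filter.Eventually.of_forall fun x => ?_)
  simp only [smul_eq_mul]
  rw [ENNReal.toReal_ofReal (Real.exp_pos _).le, mul_comm]

theorem integrable_nu_iff (f : ℝ → ℝ) :
    Integrable f nu ↔ IntegrableOn (fun x => f x * Real.exp (-x)) (Ioi (0 : ℝ)) := by
  unfold nu
  rw [integrable_withDensity_iff_integrable_smul' (by fun_prop) (by simp)]
  unfold IntegrableOn
  refine integrable_congr (Filter.Eventually.of_forall fun x => ?_)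
  simp only [smul_eq_mul]
  rw [ENNReal.toReal_ofReal (Real.exp_pos _).le, mul_comm]

theorem nu_apply (s : Set ℝ) (hs : MeasurableSet s) :
    nu s = ENNReal.ofReal (∫ x in Ioi (0 : ℝ), s.indicator (fun x => Real.exp (-x)) x) := by
  unfold nu
  rw [withDensity_apply _ hs, ← lintegral_indicator hs, ofReal_integral_eq_lintegral_ofReal]
  · congr 1
    ext x
    by_cases hx : x ∈ s <;> simp [hx]
  · exact (integrableOn_exp_neg_Ioi 0).indicator hs
  · exact Filter.Eventually.of_forall fun x =>
      Set.indicator_nonneg (fun _ _ => (Real.exp_pos _).le) x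

instance isProb_nu : IsProbabilityMeasure nu := by
  constructor
  rw [nu_apply _ MeasurableSet.univ]
  simp [integral_exp_Iic]

/-- The law of `N` independent mean-one exponential variables. -/
noncomputable def PP (N : ℕ) : Measure (Fin N → ℝ) := Measure.pi fun _ => nu

instance isProb_PP (N : ℕ) : IsProbabilityMeasure (PP N) := by
  unfold PP; infer_instance

theorem PP_eq (N : ℕ) :
    PP N = (Measure.pi fun _ : Fin N => volume.restrict (Ioi (0 : ℝ))).withDensity
      (fun x => ENNReal.ofReal (Real.exp (-∑ i, x i))) := by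
  unfold PP
  refine Measure.pi_eq fun s hs => ?_
  have hm : MeasurableSet (Set.univ.pi s) := MeasurableSet.univ_pi hs
  rw [withDensity_apply _ hm, ← lintegral_indicator hm]
  have h1 : (fun x : Fin N → ℝ => (Set.univ.pi s).indicator
      (fun x => ENNReal.ofReal (Real.exp (-∑ i, x i))) x) =
      fun x => ENNReal.ofReal (∏ i, (s i).indicator (fun y => Real.exp (-y)) (x i)) := by
    ext x
    by_cases hx : x ∈ Set.univ.pi s
    · rw [indicator_of_mem hx]
      congr 1
      rw [← Finset.sum_neg_distrib, Real.exp_sum]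
      refine Finset.prod_congr rfl fun i _ => ?_
      rw [indicator_of_mem (hx i (mem_univ i))]
    · rw [indicator_of_notMem hx]
      simp only [mem_pi, mem_univ, true_implies, not_forall] at hx
      obtain ⟨i, hi⟩ := hx
      rw [Finset.prod_eq_zero (Finset.mem_univ i) (indicator_of_notMem hi _)]
      simp
  rw [h1, ← ofReal_integral_eq_lintegral_ofReal, integral_fintype_prod_eq_prod
    (fun i (y : ℝ) => (s i).indicator (fun y => Real.exp (-y)) y), ENNReal.ofReal_prod_of_nonneg]
  · exact Finset.prod_congr rfl fun i _ => (nu_apply _ (hs i)).symm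
  · intro i _
    exact integral_nonneg fun x => Set.indicator_nonneg (fun _ _ => (Real.exp_pos _).le) x
  · exact Integrable.fintype_prod (f := fun i (y : ℝ) => (s i).indicator (fun y => Real.exp (-y)) y)
      fun i => (integrableOn_exp_neg_Ioi 0).indicator (hs i)
  · exact Filter.Eventually.of_forall fun x => Finset.prod_nonneg fun i _ =>
      Set.indicator_nonneg (fun _ _ => (Real.exp_pos _).le) _

theorem orthant_eq (N : ℕ) (φ : (Fin N → ℝ) → ℝ) :
    ∫ x in Set.pi Set.univ (fun _ : Fin N => Set.Ioi (0 : ℝ)), φ x * Real.exp (-∑ i, x i)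
      = ∫ x, φ x ∂(PP N) := by
  rw [PP_eq, integral_withDensity_eq_integral_toReal_smul (by fun_prop) (by simp), volume_pi,
    Measure.restrict_pi_pi]
  refine integral_congr_ae (Filter.Eventually.of_forall fun x => ?_)
  simp only [smul_eq_mul]
  rw [ENNReal.toReal_ofReal (Real.exp_pos _).le, mul_comm]

/-- Integral against `PP (N+1)` as an integral against the product. -/
theorem integral_PP_succ (N : ℕ) (φ : (Fin (N + 1) → ℝ) → ℝ) :
    ∫ x, φ x ∂(PP (N + 1)) = ∫ z : ℝ × (Fin N → ℝ), φ (Fin.cons z.1 z.2) ∂(nu.prod (PP N)) := by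
  unfold PP
  rw [← ((measurePreserving_piFinSuccAbove (fun _ : Fin (N + 1) => nu) 0).symm).integral_comp']
  simp_rw [MeasurableEquiv.piFinSuccAbove_symm_apply, Fin.insertNthEquiv, Fin.insertNth_zero,
    Equiv.coe_fn_mk, cast_eq]

theorem integral_Ioi_mul_exp (ρ b : ℝ) (hρ : 0 < ρ) (hb : 0 ≤ b) :
    IntegrableOn (fun u => u * Real.exp (-(ρ * u))) (Ioi b) ∧
      ∫ u in Ioi b, u * Real.exp (-(ρ * u)) = (b / ρ + 1 / ρ ^ 2) * Real.exp (-(ρ * b)) := by
  have hd : ∀ x ∈ Ici b, HasDerivAt (fun u => -((u / ρ + 1 / ρ ^ 2) * Real.exp (-(ρ * u))))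
      (x * Real.exp (-(ρ * x))) x := by
    intro x _
    have h1 : HasDerivAt (fun u => u / ρ + 1 / ρ ^ 2) (1 / ρ) x :=
      ((hasDerivAt_id x).div_const ρ).add_const _
    have h2 : HasDerivAt (fun u => Real.exp (-(ρ * u))) (Real.exp (-(ρ * x)) * (-(ρ * 1))) x :=
      (((hasDerivAt_id x).const_mul ρ).neg).exp
    have h3 := (h1.mul h2).neg
    have h4 : x * Real.exp (-(ρ * x)) = -(1 / ρ * Real.exp (-(ρ * x)) +
        (x / ρ + 1 / ρ ^ 2) * (Real.exp (-(ρ * x)) * (-(ρ * 1)))) := by
      field_simp
      ring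
    rw [h4]
    exact h3
  have hpos : ∀ x ∈ Ioi b, 0 ≤ x * Real.exp (-(ρ * x)) := fun x hx =>
    mul_nonneg (hb.trans (le_of_lt hx)) (Real.exp_pos _).le
  have ht : Filter.Tendsto (fun u => -((u / ρ + 1 / ρ ^ 2) * Real.exp (-(ρ * u))))
      Filter.atTop (nhds 0) := by
    have h0 : Filter.Tendsto (fun u : ℝ => ρ * u) Filter.atTop Filter.atTop :=
      Filter.tendsto_id.const_mul_atTop hρ
    have h1 := (Real.tendsto_pow_mul_exp_neg_atTop_nhds_zero 1).comp h0
    have h2 := Real.tendsto_exp_neg_atTop_nhds_zero.comp h0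
    have h3 := ((h1.add h2).const_mul (1 / ρ ^ 2)).neg
    simp only [add_zero, mul_zero, neg_zero] at h3
    refine h3.congr fun u => ?_
    simp only [Function.comp, pow_one]
    field_simp
  refine ⟨integrableOn_Ioi_deriv_of_nonneg' hd hpos ht, ?_⟩
  rw [integral_Ioi_of_hasDerivAt_of_nonneg' hd hpos ht]
  ring

theorem integrable_id_nu : Integrable (fun x : ℝ => x) nu := by
  rw [integrable_nu_iff]
  simpa using (integral_Ioi_mul_exp 1 0 one_pos le_rfl).1

theorem integral_id_nu : ∫ x, x ∂nu = 1 := by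
  rw [integral_nu]
  simpa using (integral_Ioi_mul_exp 1 0 one_pos le_rfl).2

theorem integrable_lin (N : ℕ) (a : Fin N → ℝ) :
    Integrable (fun x : Fin N → ℝ => ∑ i, a i * x i) (PP N) := by
  refine integrable_finsetSum _ fun i _ => Integrable.const_mul ?_ _
  exact integrable_comp_eval (μ := fun _ : Fin N => nu) (f := fun x : ℝ => x) integrable_id_nu

theorem integral_lin (N : ℕ) (a : Fin N → ℝ) :
    ∫ x, ∑ i, a i * x i ∂(PP N) = ∑ i, a i := by
  rw [integral_finsetSum]
  · refine Finset.sum_congr rfl fun i _ => ?_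
    rw [integral_const_mul]
    have : ∫ x, x i ∂(PP N) = 1 := by
      unfold PP
      rw [integral_eval, integral_id_nu]
    rw [this, mul_one]
  · intro i _
    exact Integrable.const_mul
      (integrable_comp_eval (μ := fun _ : Fin N => nu) (f := fun x : ℝ => x) integrable_id_nu) _

end Crest.Agent.R280
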