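import Crest.Agent.R280.LogConc

/-!
The Gamma(2) density `kk`, the step function `HH`, and the extremal survival functions `EE`.
-/

set_option autoImplicit false

open MeasureTheory Set Real

namespace Crest.Agent.R280

/-- The Gamma(2) density. -/
noncomputable def kk (u : ℝ) : ℝ := max u 0 * Real.exp (-u)

/-- The step function. -/
noncomputable def HH (u : ℝ) : ℝ := (Iio (0 : ℝ)).indicator (fun _ => (1 : ℝ)) u

/-- The survival function of `β + X / σ`. -/
noncomputable def EE (σ β u : ℝ) : ℝ := min 1 (Real.exp (-(σ * (u - β))))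

/-- The extremal constant. -/
noncomputable def cstar : ℝ := 4 / 9 * Real.exp (-(1 / 3))

theorem kk_cont : Continuous kk := by unfold kk; fun_prop

theorem kk_nonneg (u : ℝ) : 0 ≤ kk u := mul_nonneg (le_max_right _ _) (Real.exp_pos _).le

theorem kk_le_one (u : ℝ) : kk u ≤ 1 := by
  unfold kk
  rcases le_total u 0 with h | h
  · rw [max_eq_right h]; simp
  · rw [max_eq_left h, Real.exp_neg, ← div_eq_mul_inv, div_le_one (Real.exp_pos _)]
    linarith [Real.add_one_le_exp u]

theorem kk_of_nonpos {u : ℝ} (h : u ≤ 0) : kk u = 0 := by unfold kk; rw [max_eq_right h]; simp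

theorem kk_of_nonneg {u : ℝ} (h : 0 ≤ u) : kk u = u * Real.exp (-u) := by
  unfold kk; rw [max_eq_left h]

theorem kk_eq_indicator : kk = (Ioi (0 : ℝ)).indicator (fun u => u * Real.exp (-(1 * u))) := by
  ext u
  by_cases h : 0 < u
  · rw [indicator_of_mem (mem_Ioi.2 h), kk_of_nonneg h.le, one_mul]
  · rw [indicator_of_notMem (fun h' => h (mem_Ioi.1 h')), kk_of_nonpos (not_lt.1 h)]

theorem kk_integrable : Integrable kk := by
  rw [kk_eq_indicator, integrable_indicator_iff measurableSet_Ioi]
  exact (integral_Ioi_mul_exp 1 0 one_pos le_rfl).1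

theorem kk_integral : ∫ u, kk u = 1 := by
  rw [kk_eq_indicator, integral_indicator measurableSet_Ioi,
    (integral_Ioi_mul_exp 1 0 one_pos le_rfl).2]
  simp

theorem kk_integral_Ioi {b : ℝ} (hb : 0 ≤ b) :
    ∫ u in Ioi b, kk u = (1 + b) * Real.exp (-b) := by
  rw [setIntegral_congr_fun measurableSet_Ioi (g := fun u => u * Real.exp (-(1 * u)))
    (fun u hu => by simp only [one_mul]; exact kk_of_nonneg (hb.trans (le_of_lt hu))),
    (integral_Ioi_mul_exp 1 b one_pos hb).2]
  simp [add_comm]

theorem kk_integral_Iic {b : ℝ} (hb : 0 ≤ b) :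
    ∫ u in Iic b, kk u = 1 - (1 + b) * Real.exp (-b) := by
  have := intervalIntegral.integral_Iic_add_Ioi (b := b) kk_integrable.integrableOn
    kk_integrable.integrableOn
  rw [kk_integral, kk_integral_Ioi hb] at this
  linarith

theorem HH_meas : Measurable HH := by
  unfold HH; exact measurable_const.indicator measurableSet_Iio

theorem HH_of_neg {u : ℝ} (h : u < 0) : HH u = 1 := by unfold HH; rw [indicator_of_mem (mem_Iio.2 h)]

theorem HH_of_nonneg {u : ℝ} (h : 0 ≤ u) : HH u = 0 := by
  unfold HH; rw [indicator_of_notMem (fun h' => not_lt.2 h (mem_Iio.1 h'))]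

theorem HH_nonneg (u : ℝ) : 0 ≤ HH u := by
  rcases lt_or_ge u 0 with h | h
  · rw [HH_of_neg h]; exact zero_le_one
  · rw [HH_of_nonneg h]

theorem HH_le_one (u : ℝ) : HH u ≤ 1 := by
  rcases lt_or_ge u 0 with h | h
  · rw [HH_of_neg h]
  · rw [HH_of_nonneg h]; exact zero_le_one

theorem HH_shift (y : ℝ) :
    Integrable (fun u => HH (u - y) - HH u) ∧ ∫ u, (HH (u - y) - HH u) = y ∧
      ∫ u, |HH (u - y) - HH u| = |y| := by
  rcases le_total 0 y with hy | hy
  · have h : (fun u => HH (u - y) - HH u) = (Ico 0 y).indicator (fun _ => (1 : ℝ)) := by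
      ext u
      rcases lt_or_ge u 0 with h | h
      · rw [HH_of_neg h, HH_of_neg (by linarith), indicator_of_notMem (fun h' => by
          have := h'.1; linarith)]
        simp
      · rcases lt_or_ge u y with h' | h'
        · rw [HH_of_nonneg h, HH_of_neg (by linarith), indicator_of_mem (mem_Ico.2 ⟨h, h'⟩)]
          simp
        · rw [HH_of_nonneg h, HH_of_nonneg (by linarith), indicator_of_notMem (fun h'' => by
            have := h''.2; linarith)]
          simp
    have h2 : (fun u => |HH (u - y) - HH u|) = (Ico 0 y).indicator (fun _ => (1 : ℝ)) := by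
      ext u
      rw [congrFun h u, abs_of_nonneg (indicator_nonneg (fun _ _ => zero_le_one) u)]
    rw [h2, h]
    refine ⟨(integrable_indicator_iff measurableSet_Ico).2 (integrableOn_const (by simp)), ?_, ?_⟩
    · rw [integral_indicator measurableSet_Ico]; simp [hy]
    · rw [integral_indicator measurableSet_Ico]; simp [hy, abs_of_nonneg hy]
  · have h : (fun u => HH (u - y) - HH u) =
        fun u => -(Ico y 0).indicator (fun _ => (1 : ℝ)) u := by
      ext u
      rcases lt_or_ge u y with h | h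
      · rw [HH_of_neg (show u < 0 by linarith), HH_of_neg (by linarith),
          indicator_of_notMem (fun h' => by have := h'.1; linarith)]
        simp
      · rcases lt_or_ge u 0 with h' | h'
        · rw [HH_of_neg h', HH_of_nonneg (by linarith), indicator_of_mem (mem_Ico.2 ⟨h, h'⟩)]
          simp
        · rw [HH_of_nonneg h', HH_of_nonneg (by linarith), indicator_of_notMem (fun h'' => by
            have := h''.2; linarith)]
          simp
    have h2 : (fun u => |HH (u - y) - HH u|) = (Ico y 0).indicator (fun _ => (1 : ℝ)) := by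
      ext u
      rw [congrFun h u, abs_neg, abs_of_nonneg (indicator_nonneg (fun _ _ => zero_le_one) u)]
    rw [h2, h]
    refine ⟨((integrable_indicator_iff measurableSet_Ico).2
      (integrableOn_const (by simp))).neg, ?_, ?_⟩
    · rw [integral_neg, integral_indicator measurableSet_Ico]; simp [hy]
    · rw [integral_indicator measurableSet_Ico]; simp [hy, abs_of_nonpos hy]

theorem shift_mean {F : ℝ → ℝ} (hF : Integrable (fun u => F u - HH u)) (y : ℝ) :
    Integrable (fun u => F (u - y) - HH u) ∧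
      ∫ u, (F (u - y) - HH u) = (∫ u, (F u - HH u)) + y ∧
      ∫ u, |F (u - y) - HH u| ≤ (∫ u, |F u - HH u|) + |y| := by
  have h1 : Integrable (fun u => F (u - y) - HH (u - y)) := hF.comp_sub_right y
  obtain ⟨h2, h3, h4⟩ := HH_shift y
  have h5 : (fun u => F (u - y) - HH u) =
      fun u => (F (u - y) - HH (u - y)) + (HH (u - y) - HH u) := by
    ext u; ring
  refine ⟨by rw [h5]; exact h1.add h2, ?_, ?_⟩
  · rw [h5, integral_add h1 h2, h3, integral_sub_right_eq_self (fun u => F u - HH u) y]
  · calc ∫ u, |F (u - y) - HH u|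
        ≤ ∫ u, (|F (u - y) - HH (u - y)| + |HH (u - y) - HH u|) := by
          refine integral_mono (by rw [h5] at *; exact (by
            have := (h1.add h2).abs
            refine this.congr (Filter.Eventually.of_forall fun u => ?_)
            simp only [Pi.add_apply]
            congr 1; ring)) (h1.abs.add h2.abs) fun u => ?_
          simp only
          rw [congrFun h5 u]
          exact abs_add_le _ _
      _ = (∫ u, |F u - HH u|) + |y| := by
          rw [integral_add h1.abs h2.abs, h4,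
            integral_sub_right_eq_self (fun u => |F u - HH u|) y]

theorem EE_cont (σ β : ℝ) : Continuous (EE σ β) := by unfold EE; fun_prop

theorem EE_nonneg (σ β u : ℝ) : 0 ≤ EE σ β u := le_min zero_le_one (Real.exp_pos _).le

theorem EE_le_one (σ β u : ℝ) : EE σ β u ≤ 1 := min_le_left _ _

theorem EE_of_le {σ β u : ℝ} (hσ : 0 < σ) (h : u ≤ β) : EE σ β u = 1 := by
  unfold EE
  rw [min_eq_left]
  exact Real.one_le_exp (by nlinarith)

theorem EE_of_ge {σ β u : ℝ} (hσ : 0 < σ) (h : β ≤ u) :
    EE σ β u = Real.exp (-(σ * (u - β))) := by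
  unfold EE
  rw [min_eq_right]
  exact Real.exp_le_one_iff.2 (by nlinarith)

theorem EE_mono {σ β β' : ℝ} (hσ : 0 < σ) (h : β ≤ β') (u : ℝ) : EE σ β u ≤ EE σ β' u :=
  min_le_min le_rfl (Real.exp_le_exp.2 (by nlinarith))

theorem EE_mean {σ : ℝ} (hσ : 0 < σ) (β : ℝ) :
    Integrable (fun u => EE σ β u - HH u) ∧ ∫ u, (EE σ β u - HH u) = β + 1 / σ := by
  have h0 : (fun u => EE σ 0 u - HH u) = (Ici (0 : ℝ)).indicator (fun u => Real.exp (-σ * u)) := by
    ext u
    rcases lt_or_ge u 0 with h | h
    · rw [EE_of_le hσ h.le, HH_of_neg h, indicator_of_notMem (fun h' => not_lt.2 (mem_Ici.1 h') h)]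
      simp
    · rw [EE_of_ge hσ h, HH_of_nonneg h, indicator_of_mem (mem_Ici.2 h)]
      simp
  have h1 : Integrable (fun u => EE σ 0 u - HH u) := by
    rw [h0, integrable_indicator_iff measurableSet_Ici, integrableOn_Ici_iff_integrableOn_Ioi]
    exact integrableOn_exp_mul_Ioi (by linarith) 0
  have h2 : ∫ u, (EE σ 0 u - HH u) = 1 / σ := by
    rw [h0, integral_indicator measurableSet_Ici, integral_Ici_eq_integral_Ioi,
      integral_exp_mul_Ioi (by linarith) 0]
    simp
  have h3 : ∀ u, EE σ β u = EE σ 0 (u - β) := by intro u; unfold EE; simp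
  obtain ⟨h4, h5, -⟩ := shift_mean h1 β
  simp_rw [h3]
  exact ⟨h4, by rw [h5, h2]; ring⟩

theorem integrable_mul_kk {F : ℝ → ℝ} (hF : AEStronglyMeasurable F volume) (h0 : ∀ u, 0 ≤ F u)
    (h1 : ∀ u, F u ≤ 1) : Integrable (fun u => F u * kk u) :=
  kk_integrable.bdd_mul (c := 1) hF (Filter.Eventually.of_forall fun u => by
    rw [Real.norm_eq_abs, abs_of_nonneg (h0 u)]; exact h1 u)

theorem EE_kk_integrable (σ β : ℝ) : Integrable (fun u => EE σ β u * kk u) :=
  integrable_mul_kk (EE_cont σ β).aestronglyMeasurable (EE_nonneg σ β) (EE_le_one σ β)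

theorem J_formula {σ β b : ℝ} (hσ : 0 < σ) (hb : 0 ≤ b) (hβ : β ≤ b) (hb' : b = 0 ∨ b = β) :
    ∫ u, EE σ β u * kk u = 1 - (1 + b) * Real.exp (-b) +
      Real.exp (σ * β) * ((b / (1 + σ) + 1 / (1 + σ) ^ 2) * Real.exp (-((1 + σ) * b))) := by
  rw [← intervalIntegral.integral_Iic_add_Ioi (b := b) (EE_kk_integrable σ β).integrableOn
    (EE_kk_integrable σ β).integrableOn]
  have h1 : ∫ u in Iic b, EE σ β u * kk u = ∫ u in Iic b, kk u := by
    refine setIntegral_congr_fun measurableSet_Iic fun u hu => ?_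
    rcases hb' with h | h
    · rw [kk_of_nonpos (h ▸ hu)]; simp
    · rw [EE_of_le hσ (h ▸ hu)]; simp
  have h2 : ∫ u in Ioi b, EE σ β u * kk u =
      ∫ u in Ioi b, Real.exp (σ * β) * (u * Real.exp (-((1 + σ) * u))) := by
    refine setIntegral_congr_fun measurableSet_Ioi fun u hu => ?_
    have hu' : b < u := hu
    rw [EE_of_ge hσ (by linarith), kk_of_nonneg (by linarith), mul_left_comm, ← Real.exp_add,
      mul_left_comm, ← Real.exp_add]
    congr 2
    ring
  rw [h1, h2, kk_integral_Iic hb, integral_const_mul,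
    (integral_Ioi_mul_exp (1 + σ) b (by linarith) hb).2]

theorem cstar_le : cstar ≤ 8 / 25 := by
  unfold cstar
  have h : (25 : ℝ) / 18 ≤ Real.exp (1 / 3) := by
    have := Real.quadratic_le_exp_of_nonneg (x := 1 / 3) (by norm_num)
    linarith
  rw [Real.exp_neg]
  have : (Real.exp (1 / 3))⁻¹ ≤ 18 / 25 := by
    rw [inv_le_comm₀ (Real.exp_pos _) (by norm_num)]
    norm_num at h ⊢
    exact h
  linarith

theorem J_ge {σ : ℝ} (hσ : 0 < σ) : cstar ≤ ∫ u, EE σ (4 / 3 - 1 / σ) u * kk u := by
  rcases le_total (4 / 3 - 1 / σ) 0 with h | h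
  · rw [J_formula hσ le_rfl h (Or.inl rfl)]
    have e1 : σ * (4 / 3 - 1 / σ) = -(1 / 3) + ((2 * σ - 1) / 3 + (2 * σ - 1) / 3) := by
      field_simp; ring
    rw [e1, Real.exp_add, Real.exp_add]
    have h2 : 2 / 3 * (1 + σ) ≤ Real.exp ((2 * σ - 1) / 3) := by
      linarith [Real.add_one_le_exp ((2 * σ - 1) / 3)]
    have h3 : 0 < 1 + σ := by linarith
    have h4 : (2 / 3 * (1 + σ)) * (2 / 3 * (1 + σ)) ≤
        Real.exp ((2 * σ - 1) / 3) * Real.exp ((2 * σ - 1) / 3) :=
      mul_le_mul h2 h2 (by positivity) (Real.exp_pos _).le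
    unfold cstar
    simp only [add_zero, neg_zero, Real.exp_zero, mul_one, sub_self, zero_div, zero_add, mul_zero]
    rw [mul_assoc, mul_comm (4 / 9 : ℝ)]
    refine mul_le_mul_of_nonneg_left ?_ (Real.exp_pos _).le
    rw [mul_one_div, le_div_iff₀ (by positivity)]
    nlinarith
  · rw [J_formula hσ h le_rfl (Or.inr rfl)]
    refine cstar_le.trans ?_
    set b := 4 / 3 - 1 / σ with hb
    set a := 1 / σ with ha
    have ha0 : 0 < a := by positivity
    have hσa : σ = 1 / a := by rw [ha]; simp
    have e1 : Real.exp (σ * b) * ((b / (1 + σ) + 1 / (1 + σ) ^ 2) * Real.exp (-((1 + σ) * b))) =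
        (b * a / (1 + a) + a ^ 2 / (1 + a) ^ 2) * Real.exp (-b) := by
      rw [mul_left_comm, ← Real.exp_add, show σ * b + -((1 + σ) * b) = -b by ring, hσa]
      congr 1
      field_simp
      ring
    rw [e1]
    have hexp : 1 + b + b ^ 2 / 2 + b ^ 3 / 6 ≤ Real.exp b := by
      have := Real.sum_le_exp_of_nonneg h 4
      simp [Finset.sum_range_succ, Nat.factorial] at this
      linarith
    have hP : 0 < 1 + b + b ^ 2 / 2 + b ^ 3 / 6 := by positivity
    have hE : Real.exp (-b) * (1 + b + b ^ 2 / 2 + b ^ 3 / 6) ≤ 1 := by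
      rw [Real.exp_neg, inv_mul_le_iff₀ (Real.exp_pos _)]
      linarith
    have hab : a = 4 / 3 - b := by rw [hb]; ring
    have hb1 : b ≤ 4 / 3 := by linarith
    have hq : (1 + b) - (b * a / (1 + a) + a ^ 2 / (1 + a) ^ 2) ≤
        17 / 25 * (1 + b + b ^ 2 / 2 + b ^ 3 / 6) := by
      have h1a : 0 < 1 + a := by linarith
      have : (1 + b) - (b * a / (1 + a) + a ^ 2 / (1 + a) ^ 2) =
          (1 + 2 * a + b * (1 + a)) / (1 + a) ^ 2 := by
        field_simp; ring
      rw [this, div_le_iff₀ (by positivity), hab]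
      have hc : 0 ≤ 4 / 3 - b := by linarith
      nlinarith [mul_nonneg h hc, mul_nonneg (mul_nonneg h h) hc, mul_nonneg (mul_nonneg h hc) hc,
        mul_nonneg (mul_nonneg (mul_nonneg h h) h) hc,
        mul_nonneg (mul_nonneg (mul_nonneg h h) hc) hc,
        mul_nonneg (mul_nonneg (mul_nonneg h hc) hc) hc,
        mul_nonneg (mul_nonneg (mul_nonneg (mul_nonneg h h) h) hc) hc,
        mul_nonneg (mul_nonneg (mul_nonneg (mul_nonneg h h) hc) hc) hc]
    have := mul_le_mul_of_nonneg_left hq (Real.exp_pos (-b)).le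
    nlinarith

theorem J_ge' {σ β : ℝ} (hσ : 0 < σ) :
    cstar - max (4 / 3 - 1 / σ - β) 0 ≤ ∫ u, EE σ β u * kk u := by
  have hJ := J_ge hσ
  set β0 := 4 / 3 - 1 / σ with hβ0
  rcases le_total β0 β with h | h
  · rw [max_eq_right (by linarith), sub_zero]
    refine hJ.trans (integral_mono (EE_kk_integrable _ _) (EE_kk_integrable _ _) fun u => ?_)
    exact mul_le_mul_of_nonneg_right (EE_mono hσ h u) (kk_nonneg u)
  · rw [max_eq_left (by linarith)]
    obtain ⟨i1, m1⟩ := EE_mean hσ β
    obtain ⟨i2, m2⟩ := EE_mean hσ β0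
    have h1 : ∫ u, (EE σ β0 u * kk u - EE σ β u * kk u) ≤
        ∫ u, ((EE σ β0 u - HH u) - (EE σ β u - HH u)) := by
      refine integral_mono ((EE_kk_integrable _ _).sub (EE_kk_integrable _ _)) (i2.sub i1)
        fun u => ?_
      have := EE_mono hσ h u
      simp only
      nlinarith [kk_le_one u, kk_nonneg u]
    rw [integral_sub (EE_kk_integrable _ _) (EE_kk_integrable _ _), integral_sub i2 i1, m1, m2]
      at h1
    linarith

end Crest.Agent.R280
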