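import Crest.Agent.R280.Main
import Crest.Prelude.Def_TruncExpWeight

/-!
Assembly of the upper and the lower bound.
-/

set_option autoImplicit false

open MeasureTheory Set Real Crest.AlgGeometry

namespace Crest.Agent.R280

theorem hh_eq (y : ℝ) : ∫ u, HH (u - y) * kk u = 1 - truncExpWeight y := by
  have h : (fun u => HH (u - y) * kk u) = (Iio y).indicator kk := by
    ext u
    rcases lt_or_ge u y with h | h
    · rw [HH_of_neg (by linarith), indicator_of_mem (mem_Iio.2 h), one_mul]
    · rw [HH_of_nonneg (by linarith), indicator_of_notMem (fun h' => not_lt.2 h (mem_Iio.1 h')),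
        zero_mul]
  rw [h, integral_indicator measurableSet_Iio, ← integral_Iic_eq_integral_Iio]
  unfold truncExpWeight
  split_ifs with hy
  · rw [setIntegral_congr_fun measurableSet_Iic (g := fun _ => (0 : ℝ))
      (fun u hu => kk_of_nonpos (le_trans hu hy))]
    simp
  · exact kk_integral_Iic (not_le.1 hy).le

theorem g_cont : Continuous truncExpWeight := by
  have : truncExpWeight = fun y => (1 + max y 0) * Real.exp (-max y 0) := by
    ext y
    unfold truncExpWeight
    split_ifs with hy
    · rw [max_eq_right hy]; simp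
    · rw [max_eq_left (not_le.1 hy).le]
  rw [this]
  fun_prop

theorem g_nonneg (y : ℝ) : 0 ≤ truncExpWeight y := by
  unfold truncExpWeight
  split_ifs with hy
  · exact zero_le_one
  · exact mul_nonneg (by linarith [not_le.1 hy]) (Real.exp_pos _).le

theorem g_le_one (y : ℝ) : truncExpWeight y ≤ 1 := by
  unfold truncExpWeight
  split_ifs with hy
  · exact le_rfl
  · rw [Real.exp_neg, ← div_eq_mul_inv, div_le_one (Real.exp_pos _)]
    linarith [Real.add_one_le_exp y]

section Fubini
variable {Ω : Type*} [MeasurableSpace Ω] {P : Measure Ω} [IsProbabilityMeasure P]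
  {F : ℝ → ℝ} {Y : Ω → ℝ}

theorem integrable_F_shift (hF : LC F) (hY : Measurable Y) (u : ℝ) :
    Integrable (fun x => F (u - Y x)) P := by
  refine Integrable.of_bound (C := 1) ?_ (Filter.Eventually.of_forall fun x => ?_)
  · exact (hF.cont.measurable.comp (measurable_const.sub hY)).aestronglyMeasurable
  · rw [Real.norm_eq_abs, abs_of_pos (hF.pos _)]; exact hF.le_one _

theorem fubini_mean (hF : LC F) (hI : Integrable (fun u => F u - HH u)) (hY : Measurable Y)
    (hYi : Integrable Y P) :
    Integrable (fun u => (∫ x, F (u - Y x) ∂P) - HH u) ∧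
      ∫ u, ((∫ x, F (u - Y x) ∂P) - HH u) = (∫ u, (F u - HH u)) + ∫ x, Y x ∂P := by
  have hm : Measurable (fun z : ℝ × Ω => F (z.1 - Y z.2) - HH z.1) :=
    (hF.cont.measurable.comp (measurable_fst.sub (hY.comp measurable_snd))).sub
      (HH_meas.comp measurable_fst)
  have hint : Integrable (fun z : ℝ × Ω => F (z.1 - Y z.2) - HH z.1) (volume.prod P) := by
    rw [integrable_prod_iff' hm.aestronglyMeasurable]
    refine ⟨Filter.Eventually.of_forall fun x => (shift_mean hI (Y x)).1, ?_⟩
    refine Integrable.mono' ((integrable_const (∫ u, |F u - HH u|)).add hYi.abs)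
      (hm.stronglyMeasurable.norm.integral_prod_left').aestronglyMeasurable
      (Filter.Eventually.of_forall fun x => ?_)
    rw [Real.norm_eq_abs, abs_of_nonneg (integral_nonneg fun u => norm_nonneg _)]
    exact (shift_mean hI (Y x)).2.2
  have e : (fun u => (∫ x, F (u - Y x) ∂P) - HH u) =
      fun u => ∫ x, (F (u - Y x) - HH u) ∂P := by
    ext u
    rw [integral_sub (integrable_F_shift hF hY u) (integrable_const _)]
    simp
  rw [e]
  refine ⟨hint.integral_prod_left, ?_⟩
  rw [integral_integral_swap (f := fun u x => F (u - Y x) - HH u) hint]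
  simp_rw [fun x => (shift_mean hI (Y x)).2.1]
  rw [integral_add (integrable_const _) hYi]
  simp

theorem fubini_pair (hF : LC F) (hI : Integrable (fun u => F u - HH u)) (hY : Measurable Y) :
    ∫ u, (∫ x, F (u - Y x) ∂P) * kk u ≤
      (1 - ∫ x, truncExpWeight (Y x) ∂P) + ∫ u, |F u - HH u| := by
  have hm : Measurable (fun z : ℝ × Ω => F (z.1 - Y z.2)) :=
    hF.cont.measurable.comp (measurable_fst.sub (hY.comp measurable_snd))
  have hint : Integrable (fun z : ℝ × Ω => F (z.1 - Y z.2) * kk z.1) (volume.prod P) := by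
    refine Integrable.bdd_mul (c := 1) (kk_integrable.comp_fst P) hm.aestronglyMeasurable
      (Filter.Eventually.of_forall fun z => ?_)
    rw [Real.norm_eq_abs, abs_of_pos (hF.pos _)]; exact hF.le_one _
  have hg : Integrable (fun x => truncExpWeight (Y x)) P := by
    refine Integrable.of_bound (C := 1) (g_cont.measurable.comp hY).aestronglyMeasurable
      (Filter.Eventually.of_forall fun x => ?_)
    rw [Real.norm_eq_abs, abs_of_nonneg (g_nonneg _)]; exact g_le_one _
  simp_rw [← integral_mul_const]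
  rw [integral_integral_swap (f := fun u x => F (u - Y x) * kk u) hint]
  have hb : ∀ y : ℝ, ∫ u, F (u - y) * kk u ≤ (1 - truncExpWeight y) + ∫ u, |F u - HH u| := by
    intro y
    have i1 : Integrable (fun u => F (u - y) * kk u) :=
      integrable_mul_kk (hF.cont.comp (by fun_prop)).aestronglyMeasurable
        (fun u => (hF.pos _).le) (fun u => hF.le_one _)
    have i2 : Integrable (fun u => HH (u - y) * kk u) :=
      integrable_mul_kk (HH_meas.comp (by fun_prop)).aestronglyMeasurable
        (fun u => HH_nonneg _) (fun u => HH_le_one _)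
    have i3 : Integrable (fun u => |F (u - y) - HH (u - y)|) := (hI.comp_sub_right y).abs
    rw [← hh_eq, ← integral_sub_right_eq_self (fun u => |F u - HH u|) y, ← integral_add i2 i3]
    refine integral_mono i1 (i2.add i3) fun u => ?_
    simp only
    nlinarith [kk_nonneg u, kk_le_one u, le_abs_self (F (u - y) - HH (u - y)),
      abs_nonneg (F (u - y) - HH (u - y))]
  calc ∫ x, ∫ u, F (u - Y x) * kk u ∂volume ∂P
      ≤ ∫ x, ((1 - truncExpWeight (Y x)) + ∫ u, |F u - HH u|) ∂P :=
        integral_mono hint.integral_prod_right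
          (((integrable_const _).sub hg).add (integrable_const _)) fun x => hb (Y x)
    _ = _ := by
        have hg' : Integrable (fun x => 1 - truncExpWeight (Y x)) P := (integrable_const _).sub hg
        rw [integral_add hg' (integrable_const _), integral_sub (integrable_const _) hg]
        simp

end Fubini

/-- A smooth approximation of the step function. -/
noncomputable def GG (r c t : ℝ) : ℝ := Real.exp (-Real.exp (r * (t - c)))

theorem GG_LC (r c : ℝ) : LC (GG r c) where
  cont := by unfold GG; fun_prop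
  pos := fun t => Real.exp_pos _
  le_one := fun t => Real.exp_le_one_iff.2 (by linarith [Real.exp_pos (r * (t - c))])
  conc := by
    unfold GG
    simp only [Real.log_exp]
    refine ⟨convex_univ, fun x _ y _ a b ha hb hab => ?_⟩
    have := convexOn_exp.2 (mem_univ (r * (x - c))) (mem_univ (r * (y - c))) ha hb hab
    simp only [smul_eq_mul] at this ⊢
    rw [show r * (a * x + b * y - c) = a * (r * (x - c)) + b * (r * (y - c)) by
      have : c = (a + b) * c := by rw [hab, one_mul]
      nth_rewrite 1 [this]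
      ring]
    linarith

theorem GG_anti {r : ℝ} (hr : 0 < r) (c : ℝ) : StrictAnti (GG r c) := by
  intro x y h
  unfold GG
  exact Real.exp_lt_exp.2 (neg_lt_neg (Real.exp_lt_exp.2 (by nlinarith)))

theorem GG_approx {r : ℝ} (hr : 0 < r) :
    Integrable (fun u => GG r 0 u - HH u) ∧ ∫ u, |GG r 0 u - HH u| ≤ 2 / r := by
  have i1 : Integrable ((Iic (0 : ℝ)).indicator fun u => Real.exp (r * u)) :=
    (integrable_indicator_iff measurableSet_Iic).2 (integrableOn_exp_mul_Iic hr 0)
  have i2 : Integrable ((Ioi (0 : ℝ)).indicator fun u => Real.exp (-r * u)) :=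
    (integrable_indicator_iff measurableSet_Ioi).2 (integrableOn_exp_mul_Ioi (by linarith) 0)
  have hb : ∀ u, |GG r 0 u - HH u| ≤ (Iic (0 : ℝ)).indicator (fun u => Real.exp (r * u)) u +
      (Ioi (0 : ℝ)).indicator (fun u => Real.exp (-r * u)) u := by
    intro u
    have g0 := (GG_LC r 0).pos u
    have g1 := (GG_LC r 0).le_one u
    rcases lt_trichotomy u 0 with h | h | h
    · rw [HH_of_neg h, indicator_of_mem (mem_Iic.2 h.le),
        indicator_of_notMem (fun h' => not_lt.2 h.le (mem_Ioi.1 h')), abs_of_nonpos (by linarith)]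
      unfold GG
      rw [sub_zero]
      linarith [Real.add_one_le_exp (-Real.exp (r * u))]
    · rw [HH_of_nonneg h.ge, indicator_of_mem (mem_Iic.2 h.le),
        indicator_of_notMem (fun h' => not_lt.2 h.le (mem_Ioi.1 h')), sub_zero, abs_of_pos g0, h]
      simpa [h] using g1
    · rw [HH_of_nonneg h.le, indicator_of_notMem (fun h' => not_lt.2 (mem_Iic.1 h') h),
        indicator_of_mem (mem_Ioi.2 h), sub_zero, abs_of_pos g0, zero_add]
      unfold GG
      rw [sub_zero]
      exact Real.exp_le_exp.2 (by linarith [Real.add_one_le_exp (r * u)])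
  have hI : Integrable (fun u => GG r 0 u - HH u) :=
    Integrable.mono' (i1.add i2) ((GG_LC r 0).cont.measurable.sub HH_meas).aestronglyMeasurable
      (Filter.Eventually.of_forall hb)
  refine ⟨hI, (integral_mono hI.abs (i1.add i2) hb).trans ?_⟩
  simp only [Pi.add_apply]
  rw [integral_add i1 i2, integral_indicator measurableSet_Iic,
    integral_indicator measurableSet_Ioi, integral_exp_mul_Iic hr,
    integral_exp_mul_Ioi (by linarith)]
  simp only [mul_zero, Real.exp_zero]
  rw [neg_div_neg_eq]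
  exact le_of_eq (by ring)

theorem upper (N : ℕ) (a : Fin N → ℝ) (ha : ∑ i, a i = 0) :
    ∫ x, truncExpWeight (4 / 3 + ∑ i, a i * x i) ∂(PP N) ≤ 1 - cstar := by
  refine le_of_forall_pos_le_add fun ε hε => ?_
  set r := 6 / ε with hr
  have hrp : 0 < r := by positivity
  obtain ⟨hI, hA⟩ := GG_approx hrp
  have hY : Measurable (fun x : Fin N → ℝ => 4 / 3 + ∑ i, a i * x i) := by fun_prop
  have hYi : Integrable (fun x : Fin N → ℝ => 4 / 3 + ∑ i, a i * x i) (PP N) :=
    (integrable_const _).add (integrable_lin N a)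
  have hYm : ∫ x, (4 / 3 + ∑ i, a i * x i) ∂(PP N) = 4 / 3 := by
    rw [integral_add (integrable_const _) (integrable_lin N a), integral_lin, ha]
    simp
  have hS : SN N a (GG r (4 / 3)) =
      fun u => ∫ x, GG r 0 (u - (4 / 3 + ∑ i, a i * x i)) ∂(PP N) := by
    ext u
    unfold SN GG
    congr 1
    ext x
    congr 4
    ring
  have hLC := (GG_LC r (4 / 3)).SN N a
  have hSA := SN_strictAnti (GG_LC r (4 / 3)) (GG_anti hrp _) N a
  rw [hS] at hLC hSA
  obtain ⟨m1, m2⟩ := fubini_mean (P := PP N) (GG_LC r 0) hI hY hYi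
  have p := fubini_pair (P := PP N) (GG_LC r 0) hI hY
  have mb := main_bound hLC hSA m1
  rw [m2, hYm, add_sub_cancel_right] at mb
  have h3 : |∫ u, (GG r 0 u - HH u)| ≤ ∫ u, |GG r 0 u - HH u| := abs_integral_le_integral_abs
  have h4 : 2 / r = ε / 3 := by rw [hr]; field_simp; ring
  linarith

theorem phi_bound (y : ℝ) :
    ∫ x, (1 - truncExpWeight (y + 2 * x)) ∂nu ≤ 4 / 9 * Real.exp (y / 2) := by
  set G : ℝ → ℝ := fun z => (1 - truncExpWeight z) * Real.exp (-(z / 2)) with hG
  have hG' : G = (Ioi (0 : ℝ)).indicator (fun z => Real.exp (-(1 / 2) * z) -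
      Real.exp (-(3 / 2) * z) - z * Real.exp (-(3 / 2 * z))) := by
    ext z
    simp only [hG]
    unfold truncExpWeight
    split_ifs with hz
    · rw [indicator_of_notMem (fun h' => not_lt.2 hz (mem_Ioi.1 h'))]; simp
    · rw [indicator_of_mem (mem_Ioi.2 (not_le.1 hz))]
      have e1 : Real.exp (-(3 / 2) * z) = Real.exp (-z) * Real.exp (-(z / 2)) := by
        rw [← Real.exp_add]; congr 1; ring
      have e2 : Real.exp (-(3 / 2 * z)) = Real.exp (-z) * Real.exp (-(z / 2)) := by
        rw [← Real.exp_add]; congr 1; ring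
      have e3 : Real.exp (-(1 / 2) * z) = Real.exp (-(z / 2)) := by
        congr 1; ring
      rw [e1, e2, e3]; ring
  have j1 := integrableOn_exp_mul_Ioi (a := -(1 / 2)) (by norm_num) 0
  have j2 := integrableOn_exp_mul_Ioi (a := -(3 / 2)) (by norm_num) 0
  obtain ⟨j3, v3⟩ := integral_Ioi_mul_exp (3 / 2) 0 (by norm_num) le_rfl
  have j12 : IntegrableOn (fun z => Real.exp (-(1 / 2) * z) - Real.exp (-(3 / 2) * z))
      (Ioi (0 : ℝ)) := j1.sub j2
  have hGi : Integrable G := by
    rw [hG', integrable_indicator_iff measurableSet_Ioi]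
    exact j12.sub j3
  have hGv : ∫ z, G z = 8 / 9 := by
    rw [hG', integral_indicator measurableSet_Ioi, integral_sub j12 j3, integral_sub j1 j2, v3,
      integral_exp_mul_Ioi (by norm_num), integral_exp_mul_Ioi (by norm_num)]
    norm_num
  have hGn : ∀ z, 0 ≤ G z := fun z =>
    mul_nonneg (sub_nonneg.2 (g_le_one z)) (Real.exp_pos _).le
  have e : ∀ x, (1 - truncExpWeight (y + 2 * x)) * Real.exp (-x) =
      Real.exp (y / 2) * G (y + 2 * x) := by
    intro x
    simp only [hG]
    rw [mul_left_comm, ← Real.exp_add]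
    congr 2
    ring
  have i1 : Integrable (fun x => G (y + 2 * x)) :=
    (hGi.comp_add_left y).comp_mul_left' (R := 2) (by norm_num)
  have v1 : ∫ x, G (y + 2 * x) = 4 / 9 := by
    rw [Measure.integral_comp_mul_left (fun x => G (y + x)) 2, integral_add_left_eq_self G y, hGv]
    norm_num
  rw [integral_nu]
  simp_rw [e]
  rw [integral_const_mul, mul_comm]
  refine mul_le_mul_of_nonneg_right ?_ (Real.exp_pos _).le
  rw [← v1]
  exact setIntegral_le_integral i1 (Filter.Eventually.of_forall fun x => hGn _)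

theorem exp_nu {s : ℝ} (hs : 0 < s) :
    Integrable (fun x => Real.exp (-(s * x))) nu ∧ ∫ x, Real.exp (-(s * x)) ∂nu = (1 + s)⁻¹ := by
  have e : (fun x => Real.exp (-(s * x)) * Real.exp (-x)) = fun x => Real.exp (-(1 + s) * x) := by
    ext x; rw [← Real.exp_add]; congr 1; ring
  rw [integrable_nu_iff, integral_nu, e]
  refine ⟨integrableOn_exp_mul_Ioi (by linarith) 0, ?_⟩
  rw [integral_exp_mul_Ioi (by linarith)]
  simp only [mul_zero, Real.exp_zero]
  rw [neg_div_neg_eq, one_div]

theorem lower (n : ℕ) (hn : 0 < n) :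
    1 - 4 / 9 * Real.exp (2 / 3) * ((1 + 1 / (n : ℝ)) ^ n)⁻¹ ≤
      ∫ x, truncExpWeight (4 / 3 + ∑ i,
        (Fin.cons 2 (fun _ : Fin n => -(2 / (n : ℝ))) : Fin (n + 1) → ℝ) i * x i) ∂(PP (n + 1)) := by
  have hn' : (0 : ℝ) < n := Nat.cast_pos.2 hn
  obtain ⟨ie, ve⟩ := exp_nu (s := 1 / (n : ℝ)) (by positivity)
  rw [integral_PP_succ]
  simp only [Fin.sum_univ_succ, Fin.cons_zero, Fin.cons_succ]
  have hg : Integrable (fun z : ℝ × (Fin n → ℝ) =>
      truncExpWeight (4 / 3 + (2 * z.1 + ∑ i, -(2 / (n : ℝ)) * z.2 i))) (nu.prod (PP n)) := by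
    refine Integrable.of_bound (C := 1) (g_cont.comp (by fun_prop)).aestronglyMeasurable
      (Filter.Eventually.of_forall fun x => ?_)
    rw [Real.norm_eq_abs, abs_of_nonneg (g_nonneg _)]; exact g_le_one _
  have hg' : Integrable (fun z : ℝ × (Fin n → ℝ) =>
      1 - truncExpWeight (4 / 3 + (2 * z.1 + ∑ i, -(2 / (n : ℝ)) * z.2 i))) (nu.prod (PP n)) :=
    (integrable_const _).sub hg
  have iP : Integrable (fun y : Fin n → ℝ => ∏ i, Real.exp (-(1 / (n : ℝ) * y i))) (PP n) :=
    Integrable.fintype_prod (f := fun (_ : Fin n) (x : ℝ) => Real.exp (-(1 / (n : ℝ) * x)))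
      fun _ => ie
  have vP : ∫ y, ∏ i, Real.exp (-(1 / (n : ℝ) * y i)) ∂(PP n) = ((1 + 1 / (n : ℝ)) ^ n)⁻¹ := by
    unfold PP
    rw [integral_fintype_prod_eq_pow (fun x : ℝ => Real.exp (-(1 / (n : ℝ) * x))), ve]
    simp
  have key : ∫ z : ℝ × (Fin n → ℝ), (1 - truncExpWeight (4 / 3 +
      (2 * z.1 + ∑ i, -(2 / (n : ℝ)) * z.2 i))) ∂(nu.prod (PP n)) ≤
      4 / 9 * Real.exp (2 / 3) * ((1 + 1 / (n : ℝ)) ^ n)⁻¹ := by
    rw [integral_prod_symm _ hg', ← vP, ← integral_const_mul]
    refine integral_mono hg'.integral_prod_right (iP.const_mul _) fun y => ?_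
    simp only
    have := phi_bound (4 / 3 + ∑ i, -(2 / (n : ℝ)) * y i)
    have e1 : ∀ x : ℝ, 4 / 3 + (2 * x + ∑ i, -(2 / (n : ℝ)) * y i) =
        4 / 3 + ∑ i, -(2 / (n : ℝ)) * y i + 2 * x := fun x => by ring
    simp_rw [e1]
    refine this.trans (le_of_eq ?_)
    rw [← Real.exp_sum, mul_assoc, ← Real.exp_add, add_div, Finset.sum_div]
    congr 3
    · norm_num
    · refine Finset.sum_congr rfl fun i _ => ?_
      ring
  rw [integral_sub (integrable_const _) hg] at key
  simp only [integral_const, probReal_univ, smul_eq_mul, mul_one] at key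
  linarith

theorem exists_n {ε : ℝ} (hε : 0 < ε) : ∃ n : ℕ, 0 < n ∧
    4 / 9 * Real.exp (2 / 3) * ((1 + 1 / (n : ℝ)) ^ n)⁻¹ < cstar + ε := by
  have h := ((Real.tendsto_one_add_div_pow_exp 1).inv₀ (Real.exp_pos 1).ne').const_mul
    (4 / 9 * Real.exp (2 / 3))
  have e : 4 / 9 * Real.exp (2 / 3) * (Real.exp 1)⁻¹ = cstar := by
    unfold cstar
    rw [← Real.exp_neg, mul_assoc, ← Real.exp_add]
    norm_num
  rw [e] at h
  have h2 := (h.eventually (gt_mem_nhds (show cstar < cstar + ε by linarith))).and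
    (Filter.eventually_gt_atTop 0)
  obtain ⟨n, h3, h4⟩ := h2.exists
  exact ⟨n, h4, h3⟩

theorem const_eq : Real.exp (4 / 3) / (4 / 3) * (1 - cstar) =
    3 / 4 * Real.exp (4 / 3) - Real.exp 1 / 3 := by
  unfold cstar
  have : Real.exp 1 = Real.exp (4 / 3) * Real.exp (-(1 / 3)) := by
    rw [← Real.exp_add]; norm_num
  rw [this]; ring

end Crest.Agent.R280
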