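import Crest.Agent.R280.Basic

/-!
Averaging against a scaled exponential variable preserves log-concavity.
-/

set_option autoImplicit false

open MeasureTheory Set Real

namespace Crest.Agent.R280

/-- Continuous, positive, at most one, and log-concave. -/
structure LC (S : ℝ → ℝ) : Prop where
  cont : Continuous S
  pos : ∀ t, 0 < S t
  le_one : ∀ t, S t ≤ 1
  conc : ConcaveOn ℝ univ (fun t => Real.log (S t))

theorem LC.ratio {S : ℝ → ℝ} (hS : LC S) {t t' h : ℝ} (ht : t ≤ t') (hh : 0 ≤ h) :
    S (t - h) * S t' ≤ S (t' - h) * S t := by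
  rcases eq_or_lt_of_le (add_nonneg (sub_nonneg.2 ht) hh) with h0 | hL
  · have h1 : h = 0 := by linarith
    have h2 : t' = t := by linarith
    simp [h1, h2]
  set L := t' - t + h with hLdef
  have hθ0 : 0 ≤ h / L := div_nonneg hh hL.le
  have hθ1 : 0 ≤ 1 - h / L := by
    rw [sub_nonneg, div_le_one hL]; linarith
  have e1 : (1 - h / L) • (t - h) + (h / L) • t' = t := by
    simp only [smul_eq_mul]; field_simp; ring
  have e2 : (h / L) • (t - h) + (1 - h / L) • t' = t' - h := by
    simp only [smul_eq_mul]; field_simp; ring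
  have c1 := hS.conc.2 (mem_univ (t - h)) (mem_univ t') hθ1 hθ0 (by ring)
  have c2 := hS.conc.2 (mem_univ (t - h)) (mem_univ t') hθ0 hθ1 (by ring)
  rw [e1] at c1
  rw [e2] at c2
  simp only [smul_eq_mul] at c1 c2
  have : Real.log (S (t - h) * S t') ≤ Real.log (S (t' - h) * S t) := by
    rw [Real.log_mul (hS.pos _).ne' (hS.pos _).ne', Real.log_mul (hS.pos _).ne' (hS.pos _).ne']
    linarith
  exact (Real.log_le_log_iff (mul_pos (hS.pos _) (hS.pos _)) (mul_pos (hS.pos _) (hS.pos _))).1 this

theorem LC.reflect {S : ℝ → ℝ} (hS : LC S) : LC (fun t => S (-t)) where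
  cont := hS.cont.comp continuous_neg
  pos := fun t => hS.pos _
  le_one := fun t => hS.le_one _
  conc := by
    refine ⟨convex_univ, fun x _ y _ a b ha hb hab => ?_⟩
    have := hS.conc.2 (mem_univ (-x)) (mem_univ (-y)) ha hb hab
    simp only [smul_eq_mul] at this ⊢
    rw [show -(a * x + b * y) = a * -x + b * -y by ring]
    exact this

/-- The average of `S (t - a X)` over a mean-one exponential `X`. -/
noncomputable def TT (a : ℝ) (S : ℝ → ℝ) (t : ℝ) : ℝ := ∫ x, S (t - a * x) ∂nu

theorem LC.integrable_shift {S : ℝ → ℝ} (hS : LC S) (a t : ℝ) :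
    Integrable (fun x => S (t - a * x)) nu := by
  refine Integrable.of_bound (C := 1) ?_ (Filter.Eventually.of_forall fun x => ?_)
  · exact (hS.cont.comp (by fun_prop)).aestronglyMeasurable
  · rw [Real.norm_eq_abs, abs_of_pos (hS.pos _)]; exact hS.le_one _

theorem LC.TT_pos {S : ℝ → ℝ} (hS : LC S) (a t : ℝ) : 0 < TT a S t := by
  unfold TT
  rw [integral_pos_iff_support_of_nonneg (fun x => (hS.pos _).le) (hS.integrable_shift a t)]
  have : Function.support (fun x => S (t - a * x)) = univ := by
    ext x; simp [(hS.pos _).ne']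
  rw [this]; simp

theorem LC.TT_le_one {S : ℝ → ℝ} (hS : LC S) (a t : ℝ) : TT a S t ≤ 1 := by
  unfold TT
  calc ∫ x, S (t - a * x) ∂nu ≤ ∫ _x, (1 : ℝ) ∂nu :=
        integral_mono (hS.integrable_shift a t) (integrable_const _) fun x => hS.le_one _
    _ = 1 := by simp

theorem LC.TT_formula {S : ℝ → ℝ} (a t : ℝ) (ha : 0 < a) :
    TT a S t = a⁻¹ * Real.exp (-(t / a)) * ∫ s in Iic t, S s * Real.exp (s / a) := by
  unfold TT
  rw [integral_nu]
  set φ : ℝ → ℝ := fun s => S s * Real.exp (s / a) with hφ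
  have h1 : ∀ x, S (t - a * x) * Real.exp (-x) = Real.exp (-(t / a)) * φ (t - a * x) := by
    intro x
    simp only [hφ]
    rw [mul_left_comm, ← Real.exp_add]
    congr 2
    field_simp
    ring
  simp_rw [h1]
  rw [integral_const_mul]
  have h2 := integral_comp_mul_left_Ioi (fun y => φ (t - y)) 0 ha
  simp only [mul_zero, smul_eq_mul] at h2
  rw [h2]
  have h3 : ∫ y in Ioi (0 : ℝ), φ (t - y) = ∫ s in Iic t, φ s := by
    have hmp : MeasurePreserving (fun y : ℝ => t - y) volume volume :=
      Measure.measurePreserving_sub_left volume t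
    have hemb : MeasurableEmbedding (fun y : ℝ => t - y) :=
      (MeasurableEquiv.subLeft t).measurableEmbedding
    rw [integral_Iic_eq_integral_Iio, ← hmp.setIntegral_preimage_emb hemb φ (Iio t)]
    congr 2
    ext y
    simp
  rw [h3]
  ring

theorem LC.hasDerivAt_TT {S : ℝ → ℝ} (hS : LC S) (a t : ℝ) (ha : 0 < a) :
    HasDerivAt (TT a S) ((S t - TT a S t) / a) t := by
  set φ : ℝ → ℝ := fun s => S s * Real.exp (s / a) with hφ
  have hφc : Continuous φ := hS.cont.mul (by fun_prop)
  have hφi : ∀ b, IntegrableOn φ (Iic b) := by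
    intro b
    refine Integrable.mono' (integrableOn_exp_mul_Iic (a := a⁻¹) (inv_pos.2 ha) b)
      hφc.aestronglyMeasurable (Filter.Eventually.of_forall fun x => ?_)
    simp only [hφ]
    rw [Real.norm_eq_abs, abs_of_pos (mul_pos (hS.pos _) (Real.exp_pos _)), div_eq_inv_mul]
    exact mul_le_of_le_one_left (Real.exp_pos _).le (hS.le_one _)
  have hΦ : HasDerivAt (fun u => ∫ s in Iic u, φ s) (φ t) t := by
    have h1 : (fun u => ∫ s in Iic u, φ s) = fun u => (∫ s in Iic 0, φ s) + ∫ s in (0)..u, φ s := by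
      ext u
      rw [← intervalIntegral.integral_Iic_sub_Iic (hφi 0) (hφi u)]
      ring
    rw [h1]
    exact ((hφc.integral_hasStrictDerivAt 0 t).hasDerivAt).const_add _
  have hE : HasDerivAt (fun u => a⁻¹ * Real.exp (-(u / a)))
      (a⁻¹ * (Real.exp (-(t / a)) * (-(1 / a)))) t :=
    ((((hasDerivAt_id t).div_const a).neg).exp).const_mul _
  have hT : TT a S = fun u => a⁻¹ * Real.exp (-(u / a)) * ∫ s in Iic u, φ s := by
    ext u; exact LC.TT_formula a u ha
  have h := hE.mul hΦ
  have hval : (S t - TT a S t) / a = a⁻¹ * (Real.exp (-(t / a)) * (-(1 / a))) *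
      (∫ s in Iic t, φ s) + a⁻¹ * Real.exp (-(t / a)) * φ t := by
    rw [LC.TT_formula a t ha]
    have : Real.exp (-(t / a)) * φ t = S t := by
      simp only [hφ]
      rw [mul_left_comm, ← Real.exp_add]; simp
    rw [mul_assoc a⁻¹ (Real.exp (-(t / a))) (φ t), this]
    simp only [hφ]
    field_simp
    ring
  rw [hval, hT]
  exact h

theorem LC.TT_of_pos {S : ℝ → ℝ} (hS : LC S) (a : ℝ) (ha : 0 < a) : LC (TT a S) where
  cont := continuous_iff_continuousAt.2 fun t => (hS.hasDerivAt_TT a t ha).continuousAt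
  pos := hS.TT_pos a
  le_one := hS.TT_le_one a
  conc := by
    have hd : ∀ t, HasDerivAt (fun t => Real.log (TT a S t))
        (((S t - TT a S t) / a) / TT a S t) t := fun t =>
      (hS.hasDerivAt_TT a t ha).log (hS.TT_pos a t).ne'
    refine Antitone.concaveOn_univ_of_deriv (fun t => (hd t).differentiableAt) ?_
    intro t t' htt'
    rw [(hd t).deriv, (hd t').deriv]
    have hp := hS.TT_pos a t
    have hp' := hS.TT_pos a t'
    have key : TT a S t * S t' ≤ TT a S t' * S t := by
      unfold TT
      rw [← integral_mul_const, ← integral_mul_const]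
      refine integral_mono_ae ((hS.integrable_shift a t).mul_const _)
        ((hS.integrable_shift a t').mul_const _) ?_
      have : ∀ᵐ x ∂nu, 0 < x := by
        unfold nu
        refine (withDensity_absolutelyContinuous _ _) ?_
        exact (ae_restrict_iff' measurableSet_Ioi).2 (Filter.Eventually.of_forall fun x hx => hx)
      filter_upwards [this] with x hx
      exact hS.ratio htt' (mul_pos ha hx).le
    rw [div_div, div_div, div_le_div_iff₀ (mul_pos ha hp') (mul_pos ha hp)]
    nlinarith [mul_le_mul_of_nonneg_left key ha.le]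

theorem LC.TT {S : ℝ → ℝ} (hS : LC S) (a : ℝ) : LC (TT a S) := by
  rcases lt_trichotomy a 0 with ha | ha | ha
  · have h1 := (hS.reflect.TT_of_pos (-a) (neg_pos.2 ha)).reflect
    have : (fun t => R280.TT (-a) (fun t => S (-t)) (-t)) = R280.TT a S := by
      ext t
      unfold R280.TT
      congr 1
      ext x
      show S (-(-t - -a * x)) = S (t - a * x)
      rw [show -(-t - -a * x) = t - a * x by ring]
    rwa [this] at h1
  · have : R280.TT a S = S := by
      ext t
      unfold R280.TT
      simp [ha]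
    rwa [this]
  · exact hS.TT_of_pos a ha

/-- The average of `S (t - ∑ a i * X i)`. -/
noncomputable def SN (N : ℕ) (a : Fin N → ℝ) (S : ℝ → ℝ) (t : ℝ) : ℝ :=
  ∫ x, S (t - ∑ i, a i * x i) ∂(PP N)

theorem SN_succ {S : ℝ → ℝ} (hS : LC S) (N : ℕ) (a : Fin (N + 1) → ℝ) :
    SN (N + 1) a S = TT (a 0) (SN N (fun i => a i.succ) S) := by
  ext t
  unfold SN TT
  rw [integral_PP_succ, integral_prod]
  · congr 1
    ext x
    congr 1
    ext y
    simp only [Fin.sum_univ_succ, Fin.cons_zero, Fin.cons_succ]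
    congr 1
    ring
  · refine Integrable.of_bound (C := 1) ?_ (Filter.Eventually.of_forall fun x => ?_)
    · simp only [Fin.sum_univ_succ, Fin.cons_zero, Fin.cons_succ]
      exact (hS.cont.comp (by fun_prop)).aestronglyMeasurable
    · rw [Real.norm_eq_abs, abs_of_pos (hS.pos _)]; exact hS.le_one _

theorem LC.SN {S : ℝ → ℝ} (hS : LC S) : ∀ (N : ℕ) (a : Fin N → ℝ), LC (SN N a S)
  | 0, a => by
    have : R280.SN 0 a S = S := by
      ext t; unfold R280.SN; simp
    rwa [this]
  | N + 1, a => by
    rw [SN_succ hS]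
    exact (LC.SN hS N _).TT _

theorem SN_strictAnti {S : ℝ → ℝ} (hS : LC S) (hA : StrictAnti S) (N : ℕ) (a : Fin N → ℝ) :
    StrictAnti (SN N a S) := by
  intro t t' h
  have hi : ∀ t, Integrable (fun x : Fin N → ℝ => S (t - ∑ i, a i * x i)) (PP N) := by
    intro t
    refine Integrable.of_bound (C := 1) ?_ (Filter.Eventually.of_forall fun x => ?_)
    · exact (hS.cont.comp (by fun_prop)).aestronglyMeasurable
    · rw [Real.norm_eq_abs, abs_of_pos (hS.pos _)]; exact hS.le_one _
  have hpos : ∀ x : Fin N → ℝ, 0 < S (t - ∑ i, a i * x i) - S (t' - ∑ i, a i * x i) :=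
    fun x => sub_pos.2 (hA (by linarith))
  rw [← sub_pos]
  unfold SN
  rw [← integral_sub (hi t) (hi t'),
    integral_pos_iff_support_of_nonneg (fun x => (hpos x).le) ((hi t).sub (hi t'))]
  have : Function.support (fun x : Fin N → ℝ =>
      S (t - ∑ i, a i * x i) - S (t' - ∑ i, a i * x i)) = univ := by
    ext x; simp [(hpos x).ne']
  rw [this]; simp

end Crest.Agent.R280
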