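import Crest.Agent.R280.Ext

/-!
The crossing argument: a log-concave survival function of mean close to `4/3` pairs with the
Gamma(2) density to at least `cstar`, up to the error in the mean.
-/

set_option autoImplicit false

open MeasureTheory Set Real

namespace Crest.Agent.R280

theorem secant3 {s : Set ℝ} {f : ℝ → ℝ} (hf : ConcaveOn ℝ s f) {x y z : ℝ} (hx : x ∈ s)
    (hz : z ∈ s) (hxy : x < y) (hyz : y < z) :
    (z - y) * f x + (y - x) * f z ≤ (z - x) * f y := by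
  have := hf.neg.secant_mono_aux1 hx hz hxy hyz
  simp only [Pi.neg_apply] at this
  linarith

/-- Comparison of a concave function with a secant line. -/
theorem secant_cmp {s : Set ℝ} {f : ℝ → ℝ} (hf : ConcaveOn ℝ s f) {u1 u2 σ : ℝ} (h1 : u1 ∈ s)
    (h2 : u2 ∈ s) (h12 : u1 < u2) (hσ : f u2 = f u1 - σ * (u2 - u1)) {u : ℝ} (hu : u ∈ s) :
    (u1 ≤ u → u ≤ u2 → f u1 - σ * (u - u1) ≤ f u) ∧
      (u ≤ u1 ∨ u2 ≤ u → f u ≤ f u1 - σ * (u - u1)) := by
  have hd : 0 < u2 - u1 := sub_pos.2 h12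
  constructor
  · intro ha hb
    rcases eq_or_lt_of_le ha with rfl | ha
    · simp
    rcases eq_or_lt_of_le hb with rfl | hb
    · rw [hσ]
    have := secant3 hf h1 h2 ha hb
    rw [hσ] at this
    refine le_of_mul_le_mul_left ?_ hd
    nlinarith
  · rintro (ha | hb)
    · rcases eq_or_lt_of_le ha with rfl | ha
      · simp
      have := secant3 hf hu h2 ha h12
      rw [hσ] at this
      refine le_of_mul_le_mul_left ?_ hd
      nlinarith
    · rcases eq_or_lt_of_le hb with rfl | hb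
      · rw [hσ]
      have := secant3 hf h1 hu h12 hb
      rw [hσ] at this
      refine le_of_mul_le_mul_left ?_ hd
      nlinarith

/-- Left end of the level set of the Gamma(2) density of length `δ`. -/
noncomputable def u1 (δ : ℝ) : ℝ := δ / (Real.exp δ - 1)

theorem exp_sub_one_pos {δ : ℝ} (hδ : 0 < δ) : 0 < Real.exp δ - 1 := by
  linarith [Real.add_one_lt_exp hδ.ne']

theorem u1_pos {δ : ℝ} (hδ : 0 < δ) : 0 < u1 δ := div_pos hδ (exp_sub_one_pos hδ)

theorem u1_le_one {δ : ℝ} (hδ : 0 < δ) : u1 δ ≤ 1 := by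
  unfold u1
  rw [div_le_one (exp_sub_one_pos hδ)]
  linarith [Real.add_one_le_exp δ]

theorem u1_le {δ : ℝ} (hδ : 0 < δ) : u1 δ ≤ 2 / δ := by
  unfold u1
  rw [div_le_div_iff₀ (exp_sub_one_pos hδ) hδ]
  nlinarith [Real.quadratic_le_exp_of_nonneg hδ.le]

theorem u1_add {δ : ℝ} (hδ : 0 < δ) : u1 δ + δ = Real.exp δ * u1 δ := by
  unfold u1
  have := (exp_sub_one_pos hδ).ne'
  field_simp
  ring

theorem u1_contOn : ContinuousOn u1 (Ioi 0) := by
  unfold u1
  refine ContinuousOn.div continuousOn_id (by fun_prop) fun x hx => (exp_sub_one_pos hx).ne'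

theorem kk_cmp {δ : ℝ} (hδ : 0 < δ) (u : ℝ) :
    (u1 δ ≤ u → u ≤ u1 δ + δ → kk (u1 δ) ≤ kk u) ∧
      (u ≤ u1 δ ∨ u1 δ + δ ≤ u → kk u ≤ kk (u1 δ)) := by
  have hp := u1_pos hδ
  have hconc : ConcaveOn ℝ (Ioi (0 : ℝ)) (fun u => Real.log u - u) :=
    strictConcaveOn_log_Ioi.concaveOn.sub (convexOn_id (convex_Ioi 0))
  have hkk : ∀ u : ℝ, 0 < u → kk u = Real.exp (Real.log u - u) := by
    intro u hu
    rw [kk_of_nonneg hu.le, sub_eq_add_neg, Real.exp_add, Real.exp_log hu]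
  have hσ : Real.log (u1 δ + δ) - (u1 δ + δ) =
      (Real.log (u1 δ) - u1 δ) - 0 * (u1 δ + δ - u1 δ) := by
    have : Real.log (u1 δ + δ) = δ + Real.log (u1 δ) := by
      rw [u1_add hδ, Real.log_mul (Real.exp_pos _).ne' hp.ne', Real.log_exp]
    rw [this]; ring
  by_cases hu : 0 < u
  · have := secant_cmp hconc (mem_Ioi.2 hp) (mem_Ioi.2 (show 0 < u1 δ + δ by linarith))
      (by linarith) hσ (mem_Ioi.2 hu)
    rw [hkk u hu, hkk _ hp]
    simp only [zero_mul, sub_zero] at this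
    exact ⟨fun a b => Real.exp_le_exp.2 (this.1 a b), fun a => Real.exp_le_exp.2 (this.2 a)⟩
  · refine ⟨fun a _ => absurd (hp.trans_le a) hu, fun _ => ?_⟩
    rw [kk_of_nonpos (not_lt.1 hu)]
    exact kk_nonneg _

section
variable {S : ℝ → ℝ}

/-- Slope of the secant of `-log S` on the level set. -/
noncomputable def sig (S : ℝ → ℝ) (δ : ℝ) : ℝ :=
  (Real.log (S (u1 δ)) - Real.log (S (u1 δ + δ))) / δ

/-- Where the secant exponential reaches height one. -/
noncomputable def bet (S : ℝ → ℝ) (δ : ℝ) : ℝ := u1 δ + Real.log (S (u1 δ)) / sig S δ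

theorem sig_ge (hS : LC S) {δ : ℝ} (hδ : 0 < δ) :
    Real.log (S (-1)) - Real.log (S 0) ≤ sig S δ := by
  have hp := u1_pos hδ
  have h1 := hS.conc.slope_anti_adjacent (mem_univ (-1)) (mem_univ (u1 δ))
    (show (-1 : ℝ) < 0 by norm_num) hp
  have h2 := hS.conc.slope_anti_adjacent (mem_univ 0) (mem_univ (u1 δ + δ)) hp
    (show u1 δ < u1 δ + δ by linarith)
  unfold sig
  have e : (Real.log (S (u1 δ)) - Real.log (S (u1 δ + δ))) / δ =
      -((Real.log (S (u1 δ + δ)) - Real.log (S (u1 δ))) / (u1 δ + δ - u1 δ)) := by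
    rw [show u1 δ + δ - u1 δ = δ by ring]; ring
  rw [e]
  norm_num at h1
  norm_num at h2 ⊢
  linarith

theorem sig0_pos (hS : LC S) (hA : StrictAnti S) : 0 < Real.log (S (-1)) - Real.log (S 0) :=
  sub_pos.2 (Real.log_lt_log (hS.pos _) (hA (by norm_num)))

theorem sig_pos (hS : LC S) (hA : StrictAnti S) {δ : ℝ} (hδ : 0 < δ) : 0 < sig S δ :=
  (sig0_pos hS hA).trans_le (sig_ge hS hδ)

theorem S_cmp (hS : LC S) (hA : StrictAnti S) {δ : ℝ} (hδ : 0 < δ) (u : ℝ) :
    (u1 δ ≤ u → u ≤ u1 δ + δ → EE (sig S δ) (bet S δ) u ≤ S u) ∧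
      (u ≤ u1 δ ∨ u1 δ + δ ≤ u → S u ≤ EE (sig S δ) (bet S δ) u) := by
  have hσ := sig_pos hS hA hδ
  have h0 : Real.log (S (u1 δ + δ)) = Real.log (S (u1 δ)) - sig S δ * (u1 δ + δ - u1 δ) := by
    unfold sig; field_simp; ring
  have := secant_cmp hS.conc (mem_univ (u1 δ)) (mem_univ (u1 δ + δ)) (by linarith) h0 (mem_univ u)
  have e : -(sig S δ * (u - bet S δ)) = Real.log (S (u1 δ)) - sig S δ * (u - u1 δ) := by
    unfold bet; field_simp; ring
  unfold EE
  rw [e]
  constructor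
  · intro a b
    refine (min_le_right _ _).trans ?_
    rw [← Real.exp_log (hS.pos u)]
    exact Real.exp_le_exp.2 (this.1 a b)
  · intro a
    refine le_min (hS.le_one u) ?_
    rw [← Real.exp_log (hS.pos u)]
    exact Real.exp_le_exp.2 (this.2 a)

theorem pair_ge (hS : LC S) (hA : StrictAnti S) (hI : Integrable (fun u => S u - HH u))
    {δ : ℝ} (hδ : 0 < δ) :
    (∫ u, EE (sig S δ) (bet S δ) u * kk u) +
      kk (u1 δ) * ((∫ u, (S u - HH u)) - (bet S δ + 1 / sig S δ)) ≤ ∫ u, S u * kk u := by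
  have hσ := sig_pos hS hA hδ
  obtain ⟨i1, m1⟩ := EE_mean hσ (bet S δ)
  have iS : Integrable (fun u => S u * kk u) :=
    integrable_mul_kk hS.cont.aestronglyMeasurable (fun u => (hS.pos u).le) hS.le_one
  have iE := EE_kk_integrable (sig S δ) (bet S δ)
  have i2 : Integrable (fun u => kk (u1 δ) * (S u - HH u - (EE (sig S δ) (bet S δ) u - HH u))) :=
    (hI.sub i1).const_mul _
  rw [← m1, ← integral_sub hI i1, ← integral_const_mul, ← integral_add iE i2]
  refine integral_mono (iE.add i2) iS fun u => ?_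
  have a := S_cmp hS hA hδ u
  have b := kk_cmp hδ u
  simp only
  by_cases h : u1 δ ≤ u ∧ u ≤ u1 δ + δ
  · nlinarith [mul_nonneg (sub_nonneg.2 (a.1 h.1 h.2)) (sub_nonneg.2 (b.1 h.1 h.2))]
  · have h' : u ≤ u1 δ ∨ u1 δ + δ ≤ u := by
      by_contra hc
      push Not at hc
      exact h ⟨hc.1.le, hc.2.le⟩
    nlinarith [mul_nonneg (sub_nonneg.2 (a.2 h')) (sub_nonneg.2 (b.2 h'))]

theorem mean_diff_le (hS : LC S) (hA : StrictAnti S) (hI : Integrable (fun u => S u - HH u))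
    {δ : ℝ} (hδ : 0 < δ) :
    (∫ u, (S u - HH u)) - (bet S δ + 1 / sig S δ) ≤ δ := by
  have hσ := sig_pos hS hA hδ
  obtain ⟨i1, m1⟩ := EE_mean hσ (bet S δ)
  rw [← m1, ← integral_sub hI i1]
  have iI : Integrable ((Icc (u1 δ) (u1 δ + δ)).indicator (fun _ => (1 : ℝ))) :=
    (integrable_indicator_iff measurableSet_Icc).2 (integrableOn_const (by simp))
  have vI : ∫ u, (Icc (u1 δ) (u1 δ + δ)).indicator (fun _ => (1 : ℝ)) u = δ := by
    rw [integral_indicator measurableSet_Icc]; simp [hδ.le]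
  refine le_trans (integral_mono (hI.sub i1) iI fun u => ?_) vI.le
  have a := S_cmp hS hA hδ u
  simp only
  by_cases h : u1 δ ≤ u ∧ u ≤ u1 δ + δ
  · rw [indicator_of_mem (mem_Icc.2 h)]
    linarith [hS.le_one u, EE_nonneg (sig S δ) (bet S δ) u]
  · have h' : u ≤ u1 δ ∨ u1 δ + δ ≤ u := by
      by_contra hc
      push Not at hc
      exact h ⟨hc.1.le, hc.2.le⟩
    rw [indicator_of_notMem (fun h'' => h (mem_Icc.1 h''))]
    linarith [a.2 h']

theorem G_contOn (hS : LC S) (hA : StrictAnti S) :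
    ContinuousOn (fun δ => bet S δ + 1 / sig S δ) (Ioi 0) := by
  have hl : Continuous (fun t => Real.log (S t)) := hS.cont.log fun t => (hS.pos t).ne'
  have h1 : ContinuousOn (fun δ => Real.log (S (u1 δ))) (Ioi 0) := hl.comp_continuousOn u1_contOn
  have h2 : ContinuousOn (fun δ => Real.log (S (u1 δ + δ))) (Ioi 0) :=
    hl.comp_continuousOn (u1_contOn.add continuousOn_id)
  have h3 : ContinuousOn (sig S) (Ioi 0) :=
    (h1.sub h2).div continuousOn_id fun x hx => (ne_of_gt hx)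
  have h4 : ∀ x ∈ Ioi (0 : ℝ), sig S x ≠ 0 := fun x hx => (sig_pos hS hA hx).ne'
  exact (u1_contOn.add (h1.div h3 h4)).add (continuousOn_const.div h3 h4)

theorem main_bound (hS : LC S) (hA : StrictAnti S) (hI : Integrable (fun u => S u - HH u)) :
    cstar - 2 * |(∫ u, (S u - HH u)) - 4 / 3| ≤ ∫ u, S u * kk u := by
  set M := ∫ u, (S u - HH u) with hM
  set σ0 := Real.log (S (-1)) - Real.log (S 0) with hσ0
  have hσ0p : 0 < σ0 := sig0_pos hS hA
  have hab1 := le_abs_self (M - 4 / 3)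
  have hab2 := neg_abs_le (M - 4 / 3)
  have habn := abs_nonneg (M - 4 / 3)
  -- bound when the secant mean is at most `4/3`
  have caseLe : ∀ δ : ℝ, 0 < δ → bet S δ + 1 / sig S δ ≤ 4 / 3 →
      cstar - (4 / 3 - (bet S δ + 1 / sig S δ)) - |M - 4 / 3| ≤ ∫ u, S u * kk u := by
    intro δ hδ hG
    have h1 := pair_ge hS hA hI hδ
    have h2 := J_ge' (β := bet S δ) (sig_pos hS hA hδ)
    rw [max_eq_left (by linarith)] at h2
    have k0 := kk_nonneg (u1 δ)
    have k1 := kk_le_one (u1 δ)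
    rw [← hM] at h1
    nlinarith [mul_nonneg k0 (show 0 ≤ M - (bet S δ + 1 / sig S δ) + |M - 4 / 3| by linarith),
      mul_nonneg (sub_nonneg.2 k1) habn]
  refine le_of_forall_pos_le_add fun ε hε => ?_
  set δ1 := 2 * (1 + 1 / σ0) / ε with hδ1
  have hδ1p : 0 < δ1 := by positivity
  by_cases h0 : bet S ε + 1 / sig S ε ≤ 4 / 3
  · have h1 := caseLe ε hε h0
    have h2 := mean_diff_le hS hA hI hε
    rw [← hM] at h2
    linarith
  by_cases h1 : 4 / 3 ≤ bet S δ1 + 1 / sig S δ1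
  · have h2 := pair_ge hS hA hI hδ1p
    have h3 := J_ge' (β := bet S δ1) (sig_pos hS hA hδ1p)
    rw [max_eq_right (by linarith)] at h3
    rw [← hM] at h2
    have k0 := kk_nonneg (u1 δ1)
    have k1 := kk_le_one (u1 δ1)
    have hsp := sig_pos hS hA hδ1p
    have hb : bet S δ1 ≤ 1 := by
      unfold bet
      have : Real.log (S (u1 δ1)) / sig S δ1 ≤ 0 :=
        div_nonpos_of_nonpos_of_nonneg (Real.log_nonpos (hS.pos _).le (hS.le_one _)) hsp.le
      linarith [u1_le_one hδ1p]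
    have hs : 1 / sig S δ1 ≤ 1 / σ0 := one_div_le_one_div_of_le hσ0p (sig_ge hS hδ1p)
    have hk : kk (u1 δ1) ≤ 2 / δ1 := by
      rw [kk_of_nonneg (u1_pos hδ1p).le]
      refine le_trans ?_ (u1_le hδ1p)
      exact mul_le_of_le_one_right (u1_pos hδ1p).le
        (Real.exp_le_one_iff.2 (by linarith [u1_pos hδ1p]))
    have hk2 : kk (u1 δ1) * (1 + 1 / σ0) ≤ ε := by
      calc kk (u1 δ1) * (1 + 1 / σ0) ≤ 2 / δ1 * (1 + 1 / σ0) :=
            mul_le_mul_of_nonneg_right hk (by positivity)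
        _ = ε := by rw [hδ1]; field_simp
    nlinarith [mul_nonneg k0 (show 0 ≤ M - (bet S δ1 + 1 / sig S δ1) + |M - 4 / 3| +
      (1 + 1 / σ0) by linarith), mul_nonneg (sub_nonneg.2 k1) habn]
  · push Not at h0 h1
    have hsub : uIcc ε δ1 ⊆ Ioi 0 := by
      intro x hx
      rcases mem_uIcc.1 hx with h | h
      · exact hε.trans_le h.1
      · exact hδ1p.trans_le h.1
    have := intermediate_value_uIcc ((G_contOn hS hA).mono hsub)
      (show (4 / 3 : ℝ) ∈ uIcc (bet S ε + 1 / sig S ε) (bet S δ1 + 1 / sig S δ1) from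
        mem_uIcc.2 (Or.inr ⟨h1.le, h0.le⟩))
    obtain ⟨δ, hδ, hG⟩ := this
    simp only at hG
    have h2 := caseLe δ (hsub hδ) hG.le
    rw [hG] at h2
    linarith

end

end Crest.Agent.R280
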